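import Vale.Agent.P102.Assoc

namespace Vale.Agent.Results.P102.Associated

open MeasureTheory Filter Topology

theorem result {Ω : Type*} [mΩ : MeasurableSpace Ω] (μ : Measure Ω) [IsProbabilityMeasure μ]
    (T : Equiv.Perm Ω) (hT : MeasurePreserving T μ μ) (hT' : Measurable T.symm)
    (L : Set (Set Ω)) (hg : mΩ = MeasurableSpace.generateFrom L) (hu : Set.univ ∈ L)
    (hi : ∀ A ∈ L, ∀ B ∈ L, A ∩ B ∈ L) (hs : ∀ A ∈ L, ∀ B ∈ L, A ∪ B ∈ L)
    (hL : ∀ A ∈ L, T ⁻¹' A ∈ L ∧ T.symm ⁻¹' A ∈ L)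
    (ha : ∀ A ∈ L, ∀ B ∈ L, μ.real A * μ.real B ≤ μ.real (A ∩ B))
    (hmix : ∀ A B, MeasurableSet A → MeasurableSet B →
      Tendsto (fun n : ℤ => μ.real (A ∩ (T ^ n : Equiv.Perm Ω) ⁻¹' B)) cofinite
        (𝓝 (μ.real A * μ.real B)))
    (k : ℕ) (A : Fin k → Set Ω) (hA : ∀ i, MeasurableSet (A i)) (t : ℕ → Fin k → ℤ)
    (ht : ∀ i j, i < j → Tendsto (fun m => t m j - t m i) atTop atTop) :
    Tendsto (fun m => μ.real (⋂ i, (T ^ t m i : Equiv.Perm Ω) ⁻¹' A i)) atTop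
      (𝓝 (∏ i, μ.real (A i))) := by
  have hm : ∀ A ∈ L, MeasurableSet A := fun A h => hg ▸ MeasurableSpace.measurableSet_generateFrom h
  have hS : MeasurePreserving T.symm μ μ :=
    MeasurePreserving.symm (⟨T, hT.measurable, hT'⟩ : Ω ≃ᵐ Ω) hT
  have key : ∀ n : ℤ, MeasurePreserving (T ^ n : Equiv.Perm Ω) μ μ ∧
      ∀ A ∈ L, (T ^ n : Equiv.Perm Ω) ⁻¹' A ∈ L := fun n => by
    induction n using Int.induction_on with
    | zero => exact ⟨MeasurePreserving.id μ, fun A h => h⟩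
    | succ n ih =>
      rw [zpow_add_one]
      exact ⟨ih.1.comp hT, fun A h => (hL _ (ih.2 A h)).1⟩
    | pred n ih =>
      rw [zpow_sub_one]
      exact ⟨ih.1.comp hS, fun A h => (hL _ (ih.2 A h)).2⟩
  have pair : ∀ i j, i < j → ∀ A B, MeasurableSet A → MeasurableSet B →
      Tendsto (fun m => μ.real ((T ^ t m i : Equiv.Perm Ω) ⁻¹' A ∩
        (T ^ t m j : Equiv.Perm Ω) ⁻¹' B)) atTop (𝓝 (μ.real A * μ.real B)) := by
    intro i j h A B hA hB
    refine ((hmix A B hA hB).comp ((ht i j h).mono_right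
      (Int.cofinite_eq ▸ le_sup_right))).congr fun m => ?_
    rw [Function.comp_apply, ← (key (t m i)).1.measureReal_preimage
      (hA.inter ((key _).1.measurable hB)).nullMeasurableSet, Set.preimage_inter,
      ← Set.preimage_comp, ← Equiv.Perm.coe_mul, ← zpow_add, sub_add_cancel]
  refine Vale.Agent.P102.multi hg hu hi hs ha (fun m i => (T ^ t m i : Equiv.Perm Ω))
    (fun m i => (key _).1) (fun m i => (key _).2) (fun i j h A hA B hB => ?_) A hA
  rcases lt_or_gt_of_ne h with h | h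
  · exact pair i j h A B (hm A hA) (hm B hB)
  · simpa only [Set.inter_comm, mul_comm] using pair j i h B A (hm B hB) (hm A hA)

end Vale.Agent.Results.P102.Associated
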